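import Mathlib
import Vale.Agent.P186.H95.Defs

/-! Thin triangles in graphs with the triangle condition, the down-clique condition and no
strip of three consecutive hexagons. -/

namespace Vale.Agent.P186.H95

variable {V : Type} (X : SimpleGraph V)

/-- `a` and `d` are opposite on a non-backtracking hexagon (or pentagon) around `p` -/
def Thru (a p d : V) : Prop :=
  ∃ b c e f, X.dist p a = 1 ∧ X.dist p b = 1 ∧ X.dist p c = 1 ∧ X.dist p d = 1 ∧
    X.dist p e = 1 ∧ X.dist p f = 1 ∧ X.dist a b = 1 ∧ X.dist b c = 1 ∧ X.dist c d = 1 ∧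
    X.dist d e = 1 ∧ X.dist e f ≤ 1 ∧ X.dist f a = 1 ∧
    a ≠ c ∧ b ≠ d ∧ c ≠ e ∧ d ≠ f ∧ e ≠ a ∧ f ≠ b

/-- the combinatorial hypotheses -/
structure Sys : Prop where
  conn : X.Connected
  tc : ∀ o v w n, X.dist v w = 1 → X.dist o v = n + 1 → X.dist o w = n + 1 →
    ∃ x, X.dist x v = 1 ∧ X.dist x w = 1 ∧ X.dist o x = n
  dc : ∀ o v x y, X.dist x v = 1 → X.dist y v = 1 → X.dist o x + 1 = X.dist o v →
    X.dist o y + 1 = X.dist o v → X.dist x y ≤ 1
  hex : ∀ x₁ x₂ x₃ x₄ x₅, Thru X x₁ x₂ x₃ → Thru X x₂ x₃ x₄ → Thru X x₃ x₄ x₅ → False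

variable {X}

theorem dist_getVert_le (hc : X.Connected) {u v : V} (q : X.Walk u v) (i j : ℕ) (hij : i ≤ j) :
    X.dist (q.getVert i) (q.getVert j) ≤ j - i := by
  induction j, hij using Nat.le_induction with
  | base => simp
  | succ j hij ih =>
    have h1 : X.dist (q.getVert j) (q.getVert (j + 1)) ≤ 1 := by
      by_cases hj : j < q.length
      · exact (SimpleGraph.dist_eq_one_iff_adj.mpr (q.adj_getVert_succ hj)).le
      · rw [q.getVert_of_length_le (by omega), q.getVert_of_length_le (by omega)]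
        simp
    have := hc.dist_triangle (u := q.getVert i) (v := q.getVert j) (w := q.getVert (j + 1))
    omega

theorem dist_getVert (hc : X.Connected) {u v : V} (q : X.Walk u v) (hq : q.length = X.dist u v)
    (i j : ℕ) (hij : i ≤ j) (hj : j ≤ q.length) :
    X.dist (q.getVert i) (q.getVert j) = j - i := by
  have h1 := dist_getVert_le hc q 0 i (Nat.zero_le _)
  have h2 := dist_getVert_le hc q i j hij
  have h3 := dist_getVert_le hc q j q.length hj
  rw [q.getVert_zero] at h1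
  rw [q.getVert_length] at h3
  have h4 := hc.dist_triangle (u := u) (v := q.getVert i) (w := v)
  have h5 := hc.dist_triangle (u := q.getVert i) (v := q.getVert j) (w := v)
  omega

theorem exists_geo (hc : X.Connected) {v p w : V} (h : X.dist v p + X.dist p w = X.dist v w) :
    ∃ γ : ℕ → V, (∀ i j, i ≤ j → j ≤ X.dist v w → X.dist (γ i) (γ j) = j - i) ∧ γ 0 = v ∧
      γ (X.dist v p) = p ∧ γ (X.dist v w) = w := by
  obtain ⟨q₁, h₁⟩ := hc.exists_walk_length_eq_dist v p
  obtain ⟨q₂, h₂⟩ := hc.exists_walk_length_eq_dist p w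
  have hl : (q₁.append q₂).length = X.dist v w := by
    rw [SimpleGraph.Walk.length_append, h₁, h₂, h]
  refine ⟨(q₁.append q₂).getVert, fun i j hij hj => dist_getVert hc _ hl i j hij (hl ▸ hj),
    by simp, ?_, ?_⟩
  · rw [SimpleGraph.Walk.getVert_append, ← h₁]
    simp
  · rw [← hl, SimpleGraph.Walk.getVert_length]

theorem exists_between (hc : X.Connected) (v w : V) (l : ℕ) (hl : l ≤ X.dist v w) :
    ∃ p, X.dist v p = l ∧ X.dist v p + X.dist p w = X.dist v w := by
  obtain ⟨γ, h1, h2, -, h3⟩ := exists_geo hc (v := v) (p := v) (w := w) (by simp)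
  have e1 := h1 0 l (Nat.zero_le _) hl
  have e2 := h1 l _ hl le_rfl
  rw [h2] at e1
  rw [h3] at e2
  exact ⟨γ l, by omega, by omega⟩

namespace Sys
variable (h : Sys X)
include h

theorem tri (u v w : V) : X.dist u w ≤ X.dist u v + X.dist v w := h.conn.dist_triangle

theorem plateau (o : V) (γ : ℕ → V) (i m : ℕ) (x : V) (hx : X.dist x (γ i) = 1)
    (hxo : X.dist o x = m) (j : ℕ) (hij : i ≤ j)
    (hadj : ∀ t, i ≤ t → t < j → X.dist (γ t) (γ (t + 1)) = 1)
    (hl : ∀ t, i ≤ t → t ≤ j → X.dist o (γ t) = m + 1) :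
    ∀ y, X.dist y (γ j) = 1 → X.dist o y = m → X.dist x y ≤ j - i + 1 := by
  induction j, hij using Nat.le_induction with
  | base =>
    intro y hy hyo
    have := hl i le_rfl le_rfl
    simpa using h.dc o (γ i) x y hx hy (by omega) (by omega)
  | succ j hij ih =>
    intro y hy hyo
    obtain ⟨z, z1, z2, z3⟩ := h.tc o (γ j) (γ (j + 1)) m (hadj j hij (by omega))
      (hl j hij (by omega)) (hl (j + 1) (by omega) le_rfl)
    have h1 := ih (fun t a b => hadj t a (by omega)) (fun t a b => hl t a (by omega)) z z1 z3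
    have h2 := hl (j + 1) (by omega) le_rfl
    have h3 := h.dc o (γ (j + 1)) z y z2 hy (by omega) (by omega)
    have h4 := h.tri x z y
    omega

theorem convex_geo (o : V) (γ : ℕ → V) (n : ℕ)
    (hγ : ∀ i j, i ≤ j → j ≤ n → X.dist (γ i) (γ j) = j - i) (k : ℕ)
    (h0 : X.dist o (γ 0) ≤ k) (hn : X.dist o (γ n) ≤ k) : ∀ t, t ≤ n → X.dist o (γ t) ≤ k := by
  classical
  by_contra hcon
  push Not at hcon
  obtain ⟨t₀, ht₀, hmax⟩ := Finset.exists_max_image (Finset.range (n + 1))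
    (fun t => X.dist o (γ t)) ⟨0, by simp⟩
  simp only [Finset.mem_range] at ht₀ hmax
  obtain ⟨m, hm⟩ : ∃ m, X.dist o (γ t₀) = m + 1 := by
    obtain ⟨t, ht, hk⟩ := hcon
    have := hmax t (by omega)
    exact ⟨X.dist o (γ t₀) - 1, by omega⟩
  have hkm : k ≤ m := by
    obtain ⟨t, ht, hk⟩ := hcon
    have := hmax t (by omega)
    omega
  have hex1 : ∃ i, X.dist o (γ i) = m + 1 := ⟨t₀, hm⟩
  have hi := Nat.find_spec hex1
  have hi' := fun t => Nat.find_min hex1 (m := t)
  have hile : Nat.find hex1 ≤ t₀ := Nat.find_min' hex1 hm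
  generalize Nat.find hex1 = i at hi hi' hile
  have hex2 : ∃ j, i ≤ j ∧ X.dist o (γ j) ≠ m + 1 := ⟨n, by omega, by omega⟩
  have hj := Nat.find_spec hex2
  have hj' := fun t => Nat.find_min hex2 (m := t)
  have hjle : Nat.find hex2 ≤ n := Nat.find_min' hex2 ⟨by omega, by omega⟩
  generalize Nat.find hex2 = j at hj hj' hjle
  obtain ⟨i, rfl⟩ : ∃ i', i = i' + 1 := by
    refine ⟨i - 1, ?_⟩
    rcases Nat.eq_zero_or_pos i with rfl | hp
    · omega
    · omega
  obtain ⟨j, rfl⟩ : ∃ j', j = j' + 1 := ⟨j - 1, by omega⟩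
  have hij : i + 1 ≤ j := by
    by_contra hc
    have : j = i := by omega
    subst this
    exact hj.2 hi
  have hl : ∀ t, i + 1 ≤ t → t ≤ j → X.dist o (γ t) = m + 1 := by
    intro t a b
    by_contra hc
    exact hj' t (by omega) ⟨a, hc⟩
  have a1 := hγ i (i + 1) (by omega) (by omega)
  have a2 := hγ j (j + 1) (by omega) (by omega)
  have a3 := hγ i (j + 1) (by omega) (by omega)
  have a4 := hi' i (by omega)
  have a5 := hmax i (by omega)
  have a6 := hmax (j + 1) (by omega)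
  have a7 := h.tri o (γ i) (γ (i + 1))
  have a8 := h.tri o (γ (j + 1)) (γ j)
  have a9 := hl j hij le_rfl
  have a10 := X.dist_comm (u := γ j) (v := γ (j + 1))
  have := h.plateau o γ (i + 1) m (γ i) (by omega) (by omega) j hij
    (fun t a b => by have := hγ t (t + 1) (by omega) (by omega); omega) hl (γ (j + 1))
    (by omega) (by omega)
  omega

theorem convex (o v p w : V) (hp : X.dist v p + X.dist p w = X.dist v w) (k : ℕ)
    (hv : X.dist o v ≤ k) (hw : X.dist o w ≤ k) : X.dist o p ≤ k := by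
  obtain ⟨γ, h1, h2, h3, h4⟩ := exists_geo h.conn hp
  have := h.convex_geo o γ _ h1 k (h2 ▸ hv) (by rw [h4]; exact hw) (X.dist v p) (by omega)
  rwa [h3] at this

theorem thru_of (o : V) (k : ℕ) (x₁ x₂ x₃ v₁ v₂ : V)
    (l₁ : X.dist o x₁ = k + 1) (l₂ : X.dist o x₂ = k + 1) (l₃ : X.dist o x₃ = k + 1)
    (m₁ : X.dist o v₁ = k + 2) (m₂ : X.dist o v₂ = k + 2)
    (a₁ : X.dist x₁ x₂ = 1) (a₂ : X.dist x₂ x₃ = 1) (b₁ : X.dist x₁ v₁ = 1)
    (b₂ : X.dist x₂ v₁ = 1) (b₃ : X.dist x₂ v₂ = 1) (b₄ : X.dist x₃ v₂ = 1)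
    (c : X.dist v₁ v₂ = 1) : Thru X x₁ x₂ x₃ := by
  obtain ⟨y₁, p₁, p₂, p₃⟩ := h.tc o x₁ x₂ k a₁ l₁ l₂
  obtain ⟨y₂, q₁, q₂, q₃⟩ := h.tc o x₂ x₃ k a₂ l₂ l₃
  have := h.dc o x₂ y₂ y₁ q₁ p₂ (by omega) (by omega)
  refine ⟨v₁, v₂, y₂, y₁, by rwa [X.dist_comm], b₂, b₃, a₂, by rwa [X.dist_comm],
    by rwa [X.dist_comm], b₁, c, by rwa [X.dist_comm], by rwa [X.dist_comm], this, p₁,
    ?_, ?_, ?_, ?_, ?_, ?_⟩ <;> rintro rfl <;> omega

theorem short (o v w : V) (hw : X.dist o w ≤ X.dist o v)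
    (hx : ∀ x, X.dist v x = 1 → X.dist o x + 1 = X.dist o v → X.dist x w + 1 ≠ X.dist v w) :
    X.dist v w ≤ 4 := by
  by_contra hcon
  obtain ⟨γ, h1, h2, -, h4⟩ := exists_geo h.conn (v := v) (p := v) (w := w) (by simp)
  have hle := h.convex_geo o γ _ h1 (X.dist o v) (h2 ▸ le_rfl) (by rw [h4]; exact hw)
  have hx' : ∀ x, X.dist x (γ 0) = 1 → X.dist o x + 1 = X.dist o v →
      ∀ j, j ≤ 5 → j ≤ X.dist x (γ j) := by
    intro x x1 x2 j hj
    rw [h2, X.dist_comm] at x1
    have e1 := hx x x1 x2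
    have e2 := h1 j _ (by omega) le_rfl
    rw [h4] at e2
    have e3 := h.tri x (γ j) w
    have e4 := h.tri v x w
    omega
  have hadj : ∀ t, t < 5 → X.dist (γ t) (γ (t + 1)) = 1 := fun t ht => by
    have := h1 t (t + 1) (by omega) (by omega); omega
  have hadj' : ∀ t, t < 5 → X.dist (γ (t + 1)) (γ t) = 1 := fun t ht => by
    rw [X.dist_comm]; exact hadj t ht
  have l0 : X.dist o (γ 0) = X.dist o v := by rw [h2]
  have l1 : X.dist o (γ 1) = X.dist o v := by
    have e1 := hle 1 (by omega)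
    have e2 := h.tri o (γ 1) (γ 0)
    have e3 := hadj' 0 (by omega)
    have e4 := hx' (γ 1) e3
    simp only [zero_add] at e3
    by_contra hc
    have := e4 (by omega) 1 (by omega)
    simp at this
  obtain ⟨m, hm⟩ : ∃ m, X.dist o v = m + 1 := by
    refine ⟨X.dist o v - 1, ?_⟩
    have e1 := hadj 0 (by omega)
    have e2 := h.tri (γ 0) o (γ (0 + 1))
    have e3 := X.dist_comm (u := γ 0) (v := o)
    simp only [zero_add] at e1 e2
    omega
  rw [hm] at l0 l1 hx' hle
  obtain ⟨x₁, a₁, b₁, c₁⟩ := h.tc o (γ 0) (γ 1) m (hadj 0 (by omega)) l0 l1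
  have hx₁ := hx' x₁ a₁ (by omega)
  have hl : ∀ j, 1 ≤ j → j ≤ 5 → ∀ t, 1 ≤ t → t ≤ j → X.dist o (γ t) = m + 1 := by
    intro j hj
    induction j, hj using Nat.le_induction with
    | base => intro _ t a b; obtain rfl : t = 1 := by omega
              exact l1
    | succ j hj ih =>
      intro hj5 t a b
      rcases Nat.lt_or_ge t (j + 1) with ht | ht
      · exact ih (by omega) t a (by omega)
      obtain rfl : t = j + 1 := by omega
      by_contra hc
      have e1 := hle (j + 1) (by omega)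
      have e2 := h.tri o (γ (j + 1)) (γ j)
      have e3 := hadj' j (by omega)
      have e4 := ih (by omega) j hj le_rfl
      have e5 := h.plateau o γ 1 m x₁ b₁ c₁ j hj (fun t a b => hadj t (by omega)) (ih (by omega))
        (γ (j + 1)) e3 (by omega)
      have e6 := hx₁ (j + 1) hj5
      omega
  have hl' := hl 5 (by omega) le_rfl
  have l2 := hl' 2 (by omega) (by omega)
  have l3 := hl' 3 (by omega) (by omega)
  have l4 := hl' 4 (by omega) (by omega)
  have l5 := hl' 5 (by omega) (by omega)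
  obtain ⟨x₂, a₂, b₂, c₂⟩ := h.tc o (γ 1) (γ 2) m (hadj 1 (by omega)) l1 l2
  obtain ⟨x₃, a₃, b₃, c₃⟩ := h.tc o (γ 2) (γ 3) m (hadj 2 (by omega)) l2 l3
  obtain ⟨x₄, a₄, b₄, c₄⟩ := h.tc o (γ 3) (γ 4) m (hadj 3 (by omega)) l3 l4
  obtain ⟨x₅, a₅, b₅, c₅⟩ := h.tc o (γ 4) (γ 5) m (hadj 4 (by omega)) l4 l5
  have d₁ := h.dc o (γ 1) x₁ x₂ b₁ a₂ (by omega) (by omega)
  have d₂ := h.dc o (γ 2) x₂ x₃ b₂ a₃ (by omega) (by omega)
  have d₃ := h.dc o (γ 3) x₃ x₄ b₃ a₄ (by omega) (by omega)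
  have d₄ := h.dc o (γ 4) x₄ x₅ b₄ a₅ (by omega) (by omega)
  have f := hx₁ 5 le_rfl
  have t₁ := h.tri x₁ x₂ (γ 5)
  have t₂ := h.tri x₂ x₃ (γ 5)
  have t₃ := h.tri x₃ x₄ (γ 5)
  have t₄ := h.tri x₄ x₅ (γ 5)
  have g₁ : X.dist x₁ x₂ = 1 := by omega
  have g₂ : X.dist x₂ x₃ = 1 := by omega
  have g₃ : X.dist x₃ x₄ = 1 := by omega
  have g₄ : X.dist x₄ x₅ = 1 := by omega
  obtain ⟨k, rfl⟩ : ∃ k, m = k + 1 := by
    refine ⟨m - 1, ?_⟩
    have e2 := h.tri x₁ o x₂
    have e3 := X.dist_comm (u := x₁) (v := o)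
    omega
  exact h.hex x₁ x₂ x₃ x₄ x₅
    (h.thru_of o k x₁ x₂ x₃ (γ 1) (γ 2) c₁ c₂ c₃ l1 l2 g₁ g₂ b₁ a₂ b₂ a₃ (hadj 1 (by omega)))
    (h.thru_of o k x₂ x₃ x₄ (γ 2) (γ 3) c₂ c₃ c₄ l2 l3 g₂ g₃ b₂ a₃ b₃ a₄ (hadj 2 (by omega)))
    (h.thru_of o k x₃ x₄ x₅ (γ 3) (γ 4) c₃ c₄ c₅ l3 l4 g₃ g₄ b₃ a₄ b₄ a₅ (hadj 3 (by omega)))

theorem thin_interval (x y u v : V) (hu : X.dist x u + X.dist u y = X.dist x y)
    (hv : X.dist x v + X.dist v y = X.dist x y) (huv : X.dist x u = X.dist x v) :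
    X.dist u v ≤ 4 := by
  refine h.short x u v huv.ge fun z z1 z2 z3 => ?_
  have e1 := h.convex y u z v (by omega) (X.dist u y) (by rw [X.dist_comm])
    (by rw [X.dist_comm]; omega)
  have e2 := h.tri x z y
  have e3 := X.dist_comm (u := z) (v := y)
  omega

theorem quasi_median (o x y : V) : ∃ x' y', X.dist x x' + X.dist x' o = X.dist x o ∧
    X.dist y y' + X.dist y' o = X.dist y o ∧
    X.dist x x' + X.dist x' y' + X.dist y' y = X.dist x y ∧ X.dist x' y' ≤ 4 := by
  obtain ⟨x', ⟨a1, a2⟩, a3⟩ := (InvImage.wf (fun z => X.dist z y) Nat.lt_wfRel.wf).has_min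
    {z | X.dist x z + X.dist z o = X.dist x o ∧ X.dist x z + X.dist z y = X.dist x y}
    ⟨x, by simp, by simp⟩
  obtain ⟨y', ⟨b1, b2⟩, b3⟩ := (InvImage.wf (fun z => X.dist z x') Nat.lt_wfRel.wf).has_min
    {z | X.dist y z + X.dist z o = X.dist y o ∧ X.dist y z + X.dist z x' = X.dist y x'}
    ⟨y, by simp, by simp⟩
  have c1 := X.dist_comm (u := y) (v := x')
  have c2 := X.dist_comm (u := y') (v := x')
  have c3 := X.dist_comm (u := y) (v := y')
  have c4 := X.dist_comm (u := o) (v := x')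
  have c5 := X.dist_comm (u := o) (v := y')
  refine ⟨x', y', a1, b1, by omega, ?_⟩
  rcases le_total (X.dist o y') (X.dist o x') with hle | hle
  · refine h.short o x' y' hle fun z z1 z2 z3 => ?_
    have e1 := h.tri x x' z
    have e2 := h.tri x z o
    have e3 := h.tri x z y
    have e4 := h.tri z y' y
    have e5 := X.dist_comm (u := o) (v := z)
    refine a3 z ⟨by omega, by omega⟩ ?_
    change X.dist z y < X.dist x' y
    omega
  · rw [← c2]
    refine h.short o y' x' hle fun z z1 z2 z3 => ?_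
    have e1 := h.tri y y' z
    have e2 := h.tri y z o
    have e3 := h.tri y z x'
    have e5 := X.dist_comm (u := o) (v := z)
    refine b3 z ⟨by omega, by omega⟩ ?_
    change X.dist z x' < X.dist y' x'
    omega

theorem near (o x y x' p : V) (h1 : X.dist x x' + X.dist x' o = X.dist x o)
    (h2 : X.dist x x' + X.dist x' y = X.dist x y) (hp : X.dist x p + X.dist p y = X.dist x y)
    (hl : X.dist x p ≤ X.dist x x' + 4) (q : X.Walk x o) (hq : q.length = X.dist x o) :
    ∃ v ∈ q.support, X.dist p v ≤ 12 := by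
  obtain ⟨p₀, a1, a2⟩ := exists_between h.conn x p (min (X.dist x p) (X.dist x x')) (by omega)
  obtain ⟨p₁, b1, b2⟩ := exists_between h.conn x x' (min (X.dist x p) (X.dist x x')) (by omega)
  have c1 := dist_getVert h.conn q hq 0 (min (X.dist x p) (X.dist x x')) (by omega) (by omega)
  have c2 := dist_getVert h.conn q hq (min (X.dist x p) (X.dist x x')) q.length (by omega) le_rfl
  rw [q.getVert_zero] at c1
  rw [q.getVert_length] at c2
  refine ⟨_, q.getVert_mem_support (min (X.dist x p) (X.dist x x')), ?_⟩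
  generalize q.getVert (min (X.dist x p) (X.dist x x')) = v at c1 c2
  have t1 := h.tri p₀ p y
  have t2 := h.tri x p₀ y
  have t3 := h.tri p₁ x' y
  have t4 := h.tri x p₁ y
  have t5 := h.tri p₁ x' o
  have t6 := h.tri x p₁ o
  have d1 := h.thin_interval x y p₀ p₁ (by omega) (by omega) (by omega)
  have d2 := h.thin_interval x o p₁ v (by omega) (by omega) (by omega)
  have t7 := h.tri p p₀ v
  have t8 := h.tri p₀ p₁ v
  have t9 := X.dist_comm (u := p) (v := p₀)
  omega

theorem thin : ThinTriangles X 12 := by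
  intro x y z p q r hp hq hr u hu
  obtain ⟨i, rfl, hi⟩ := SimpleGraph.Walk.mem_support_iff_exists_getVert.mp hu
  have c1 := dist_getVert h.conn p hp 0 i (by omega) hi
  have c2 := dist_getVert h.conn p hp i p.length hi le_rfl
  rw [p.getVert_zero] at c1
  rw [p.getVert_length] at c2
  generalize p.getVert i = u at c1 c2
  obtain ⟨x', y', a1, a2, a3, a4⟩ := h.quasi_median z x y
  have t1 := h.tri x' y' y
  have t2 := h.tri x x' y
  rcases le_total (X.dist x u) (X.dist x x' + 4) with hle | hle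
  · obtain ⟨v, hv, hd⟩ := h.near z x y x' u a1 (by omega) (by omega) hle r.reverse
      (by rw [SimpleGraph.Walk.length_reverse, hr, X.dist_comm])
    exact ⟨v, Or.inr (by simpa using hv), hd⟩
  · have c3 := X.dist_comm (u := y) (v := y')
    have c4 := X.dist_comm (u := y) (v := x)
    have c5 := X.dist_comm (u := y) (v := u)
    have c6 := X.dist_comm (u := x) (v := u)
    have c7 := X.dist_comm (u := x) (v := y')
    have t3 := h.tri x x' y'
    have t4 := h.tri x y' y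
    obtain ⟨v, hv, hd⟩ := h.near z y x y' u a2 (by omega) (by omega) (by omega) q hq
    exact ⟨v, Or.inl hv, hd⟩

end Sys

end Vale.Agent.P186.H95
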